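import Mathlib
import Vale.Agent.P143.Defs
import Vale.Agent.P143.Universal
import Vale.Agent.P143.Cayley

/-! P143: the free uniform spanning forest is a factor of IID on every infinite Cayley graph of
every finitely generated group, and a graph factor of IID on every unimodular random graph. -/

open MeasureTheory Vale.Agent.P143

theorem Vale.Agent.Results.P143.FactorOfIID.result.{u} :
    (∀ (Γ : Type u) [Group Γ] [Infinite Γ] (S : Set Γ), S.Finite → Subgroup.closure S = ⊤ →
      ∃ μ : Measure ((SimpleGraph.mulCayley S).edgeSet → Bool),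
        IsFUSF (SimpleGraph.mulCayley S) μ ∧ IsGroupFactorOfIID S μ) ∧
    (∀ ρ : Measure (SimpleGraph ℕ × ℕ), IsUnimodular ρ → FUSFIsGraphFactorOfIID ρ) := by
  refine ⟨?_, ?_⟩
  · intro Γ _ _ S hS hgen
    have : Countable Γ := countable_of_closure hS hgen
    obtain ⟨Φ, hΦm, hΦe, hΦ⟩ := exists_universal Γ
    refine ⟨_, hΦ (SimpleGraph.mulCayley S) (mulCayley_connected hgen)
      (mulCayley_neighborSet_finite hS), fun U e => Φ (SimpleGraph.mulCayley S) U e, ?_, ?_, rfl⟩
    · rw [measurable_pi_iff]
      intro e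
      exact (hΦm e).comp (measurable_const.prodMk measurable_id)
    · intro γ U e e' he
      have h := hΦe (Equiv.mulLeft γ) (SimpleGraph.mulCayley S) U e
      rw [mulCayley_map S γ] at h
      show Φ (SimpleGraph.mulCayley S) (fun v => U (γ⁻¹ * v)) e' = Φ (SimpleGraph.mulCayley S) U e
      rw [← h, he]
      rfl
  · intro ρ hρ
    obtain ⟨Φ, hΦm, hΦe, hΦ⟩ := exists_universal ℕ
    refine ⟨Φ, hΦm, hΦe, ?_⟩
    filter_upwards [hρ.graph] with p hp
    exact hΦ p.1 hp.1 hp.2
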